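import Vale.Agent.P064.Main

namespace Vale.Agent.Results.P064.LogSquared

open Vale.Agent.P064

/-- There is a universal constant `C` such that for all `n ≥ 2` and all graphs `H` with at least
one edge and at most `n` vertices:
(1) `p_c ≤ C p_E (log n)^(1 + min(1, log(1/p_E)/log n))`;
(2) `p_c ≤ C p_E (log n)^2`;
(3) for every `K ≥ 0`, if `log(1/p_E) log log n ≤ K log n`, then `p_c ≤ C e^K p_E log n`. -/
theorem result : ∃ C : ℝ, 0 < C ∧
    ∀ (n : ℕ) (V : Type) [Fintype V] (H : SimpleGraph V),
      2 ≤ n → Fintype.card V ≤ n → H ≠ ⊥ →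
        pc n H ≤ C * pE n H *
          Real.log n ^ (1 + min 1 (Real.log (1 / pE n H) / Real.log n)) ∧
        pc n H ≤ C * pE n H * Real.log n ^ 2 ∧
        ∀ K : ℝ, 0 ≤ K →
          Real.log (1 / pE n H) * Real.log (Real.log n) ≤ K * Real.log n →
            pc n H ≤ C * Real.exp K * pE n H * Real.log n := by
  classical
  have hAc := Ac_pos
  set C₀ : ℝ := 512 * (2 * Real.exp 1 * Ac) ^ 2 * (6 * Real.exp 1) with hC₀
  have hC₀pos : 0 < C₀ := by positivity
  refine ⟨4 * C₀, by positivity, ?_⟩
  intro n V _ H hn hVn hH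
  have hmain := main_bound H hn hVn hH
  rw [← hC₀] at hmain
  have hn' : (2:ℝ) ≤ n := by exact_mod_cast hn
  have hx : Real.log 2 ≤ Real.log n := Real.log_le_log (by norm_num) hn'
  have hx2 := log_two_ge
  have hx0 : 0 < Real.log n := by linarith
  have hpos := pE_pos H hVn hH
  obtain ⟨_, hq1, _⟩ := pE_mem H hVn
  set q := pE n H with hq
  set x := Real.log n with hxd
  set a := min 1 (Real.log (1 / q) / x) with ha
  have hlq : 0 ≤ Real.log (1 / q) := by
    apply Real.log_nonneg
    rw [le_div_iff₀ hpos]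
    linarith
  have ha0 : 0 ≤ a := by
    rw [ha]
    apply le_min (by norm_num)
    positivity
  have ha1 : a ≤ 1 := min_le_left _ _
  have hbase : 0 ≤ C₀ * q * x ^ (1 + a) := by
    have := Real.rpow_nonneg hx0.le (1 + a)
    positivity
  refine ⟨?_, ?_, ?_⟩
  · refine hmain.trans ?_
    nlinarith
  · -- `x^(1+a) ≤ 4 x^2`
    refine hmain.trans ?_
    have h1 : x ^ (1 + a) ≤ 4 * x ^ 2 := by
      rcases le_total 1 x with h | h
      · have h2 : x ^ (1 + a) ≤ x ^ (2:ℝ) :=
          Real.rpow_le_rpow_of_exponent_le h (by linarith)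
        rw [Real.rpow_two] at h2
        nlinarith [sq_nonneg x]
      · have h2 : x ^ (1 + a) ≤ x ^ (0:ℝ) :=
          Real.rpow_le_rpow_of_exponent_ge hx0 h (by linarith)
        rw [Real.rpow_zero] at h2
        nlinarith
    calc C₀ * q * x ^ (1 + a) ≤ C₀ * q * (4 * x ^ 2) := by gcongr
      _ = 4 * C₀ * q * x ^ 2 := by ring
  · intro K hK hKle
    refine hmain.trans ?_
    have h1 : x ^ (1 + a) ≤ 2 * (Real.exp K * x) := by
      rw [Real.rpow_add hx0, Real.rpow_one]
      have h2 : x ^ a ≤ Real.exp K * 1 := by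
        rw [mul_one, Real.rpow_def_of_pos hx0]
        apply Real.exp_le_exp.2
        rcases le_total 0 (Real.log x) with h | h
        · calc Real.log x * a ≤ Real.log x * (Real.log (1 / q) / x) :=
                mul_le_mul_of_nonneg_left (min_le_right _ _) h
            _ = (Real.log (1 / q) * Real.log x) / x := by ring
            _ ≤ K := by
              rw [div_le_iff₀ hx0]
              exact hKle
        · have : Real.log x * a ≤ 0 := mul_nonpos_of_nonpos_of_nonneg h ha0
          linarith
      have h3 : 0 < Real.exp K := Real.exp_pos K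
      have h4 : 0 ≤ x ^ a := Real.rpow_nonneg hx0.le a
      nlinarith
    calc C₀ * q * x ^ (1 + a) ≤ C₀ * q * (2 * (Real.exp K * x)) := by gcongr
      _ ≤ 4 * C₀ * Real.exp K * q * x := by
        have h5 : 0 ≤ C₀ * q * (Real.exp K * x) := by positivity
        nlinarith

end Vale.Agent.Results.P064.LogSquared
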